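import Vale.Agent.P224.R2.H533.Box

/-!
Soundness of the check of the box at the origin: the part to be subtracted is at most affine in
`x ^ 2` and `y`.
-/

namespace Vale.Agent.P224.R2.H533

open Vale.Agent.P224.R2.H582

theorem ev_mono (l : List ℕ) {x y : ℝ} (hx : 0 ≤ x) (hxy : x ≤ y) : ev l x ≤ ev l y := by
  induction l with
  | nil => simp [ev]
  | cons a l ih =>
    simp only [ev]
    nlinarith [mul_le_mul hxy ih (ev_nonneg l hx) (hx.trans hxy)]

theorem evR_nonneg (l : List (List ℕ)) {x φ : ℝ} (hx : 0 ≤ x) (hφ : 0 ≤ φ) : 0 ≤ evR l x φ := by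
  induction l with
  | nil => simp [evR]
  | cons r l ih =>
    simp only [evR]
    have := ev_nonneg r hx
    positivity

theorem evR_mono (l : List (List ℕ)) {x x' y y' : ℝ} (hx : 0 ≤ x) (hxx : x ≤ x') (hy : 0 ≤ y)
    (hyy : y ≤ y') : evR l x y ≤ evR l x' y' := by
  induction l with
  | nil => simp [evR]
  | cons r l ih =>
    simp only [evR]
    exact add_le_add (ev_mono r hx hxx) (mul_le_mul hyy ih (evR_nonneg l hx hy) (hy.trans hyy))

/-- The part of degree at least two. -/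
theorem ev_take (p : List ℕ) {x x0 u : ℝ} (hx : 0 ≤ x) (hxx : x ≤ x0) (hu : u * x0 ^ 2 = x ^ 2) :
    ev p x ≤ ev (p.take 2) x0 + u * (ev p x0 - ev (p.take 2) x0) := by
  match p with
  | [] => simp [ev]
  | [a] => simp [ev]
  | [a, b] =>
    simp only [List.take, ev]
    nlinarith [mul_le_mul_of_nonneg_right hxx (Nat.cast_nonneg (α := ℝ) b)]
  | a :: b :: c :: t =>
    simp only [List.take, ev]
    have h1 := ev_mono (c :: t) hx hxx
    simp only [ev] at h1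
    have h2 := mul_le_mul_of_nonneg_left h1 (sq_nonneg x)
    have h3 := mul_le_mul_of_nonneg_right hxx (Nat.cast_nonneg (α := ℝ) b)
    have h4 : u * (x0 * (x0 * (c + x0 * ev t x0))) = x ^ 2 * (c + x0 * ev t x0) := by
      rw [← hu]
      ring
    nlinarith [h2, h3, h4]

theorem evR_small (r : List (List ℕ)) {x x0 y y0 u v : ℝ} (hx : 0 ≤ x) (hxx : x ≤ x0)
    (hy : 0 ≤ y) (hyy : y ≤ y0) (hu : u * x0 ^ 2 = x ^ 2) (hv : v * y0 = y) :
    evR r x y ≤ ev ((r.headD []).take 2) x0 +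
      u * (evR r x0 0 - ev ((r.headD []).take 2) x0) + v * (evR r x0 y0 - evR r x0 0) := by
  cases r with
  | nil => simp [evR, ev]
  | cons p r =>
    simp only [evR, List.headD_cons, zero_mul, add_zero]
    have h1 := ev_take p hx hxx hu
    have h2 := evR_mono r hx hxx hy hyy
    have h3 := mul_le_mul_of_nonneg_left h2 hy
    have h4 : v * (ev p x0 + y0 * evR r x0 y0 - ev p x0) = y * evR r x0 y0 := by
      rw [← hv]
      ring
    rw [h4]
    linarith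

theorem evR3_small (l : List (List (List ℕ))) {x y y0 u v φ : ℝ} {x0 : ℕ} (hx : 0 ≤ x)
    (hxx : x ≤ x0) (hy : 0 ≤ y) (hyy : y ≤ y0) (hu : u * (x0 : ℝ) ^ 2 = x ^ 2) (hv : v * y0 = y)
    (hφ : 0 ≤ φ) :
    evR3 l x y φ ≤ ev (HD.low l x0) φ + u * (evR3 l x0 0 φ - ev (HD.low l x0) φ) +
      v * (evR3 l x0 y0 φ - evR3 l x0 0 φ) := by
  induction l with
  | nil => simp [evR3, ev, HD.low]
  | cons r l ih =>
    have h : HD.low (r :: l) x0 = pv ((r.headD []).take 2) x0 :: HD.low l x0 := rfl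
    rw [h]
    simp only [evR3, ev]
    rw [← ev_nat]
    have h1 := evR_small r hx hxx hy hyy hu hv
    have h2 := mul_le_mul_of_nonneg_left ih hφ
    nlinarith [h1, h2]

theorem ev_getD_two (r : List ℕ) {x : ℝ} (hx : 0 ≤ x) :
    ev r 0 + (r.getD 2 0 : ℕ) * x ^ 2 ≤ ev r x := by
  match r with
  | [] => simp [ev]
  | [a] => simp [ev]
  | [a, b] =>
    simp only [ev, List.getD_cons_succ, List.getD_nil]
    have : (0 : ℝ) ≤ x * b := by positivity
    push_cast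
    nlinarith
  | a :: b :: c :: t =>
    simp only [ev, List.getD_cons_succ, List.getD_cons_zero]
    have h1 : (0 : ℝ) ≤ x * b := by positivity
    have h2 : 0 ≤ x ^ 3 * ev t x := mul_nonneg (by positivity) (ev_nonneg t hx)
    nlinarith

theorem ev_getD_one (r : List ℕ) {x : ℝ} (hx : 0 ≤ x) :
    ev r 0 + (r.getD 1 0 : ℕ) * x ≤ ev r x := by
  match r with
  | [] => simp [ev]
  | [a] => simp [ev]
  | a :: b :: t =>
    simp only [ev, List.getD_cons_succ, List.getD_cons_zero]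
    have h2 : 0 ≤ x ^ 2 * ev t x := mul_nonneg (by positivity) (ev_nonneg t hx)
    nlinarith

theorem evR_head (l : List (List ℕ)) {x φ c : ℝ} (hx : 0 ≤ x) (hφ : 0 ≤ φ)
    (h : ev (l.headD []) 0 + c ≤ ev (l.headD []) x) (hc : l = [] → c ≤ 0) :
    evR l 0 φ + c ≤ evR l x φ := by
  cases l with
  | nil =>
    simp only [evR]
    linarith [hc rfl]
  | cons r l =>
    simp only [evR, List.headD_cons] at h ⊢
    have h1 := mul_le_mul_of_nonneg_left (evR_mono l le_rfl hx hφ le_rfl) hφ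
    linarith

/-- **Soundness of the box at the origin.** -/
theorem smallOK_sound (hU : UniSound) (H : HD) {nodes : List (ℕ × ℕ)} {x0 y0 : ℕ}
    (h : H.smallOK nodes x0 y0 = true) (hx0 : 1 ≤ x0) (hy0 : 1 ≤ y0) {x y φ : ℝ} (hx : 0 ≤ x)
    (hxx : x ≤ x0) (hy : 0 ≤ y) (hyy : y ≤ y0) (hφ : 0 ≤ φ) : H.neg x y φ ≤ H.pos x y φ := by
  have hx0' : (0 : ℝ) < x0 := by exact_mod_cast hx0
  have hy0' : (0 : ℝ) < y0 := by exact_mod_cast hy0
  simp only [HD.smallOK, fL_eq, fLL_eq, fN_eq, Bool.and_eq_true] at h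
  obtain ⟨⟨⟨c1, c2⟩, c3⟩, c4⟩ := h
  have e1 := hU _ _ _ c1 φ hφ
  have e2 := hU _ _ _ c2 φ hφ
  have e3 := hU _ _ _ c3 φ hφ
  have e4 := hU _ _ _ c4 φ hφ
  obtain ⟨u, hu0, hu1, hu⟩ : ∃ u : ℝ, 0 ≤ u ∧ u ≤ 1 ∧ u * (x0 : ℝ) ^ 2 = x ^ 2 := by
    refine ⟨x ^ 2 / (x0 : ℝ) ^ 2, by positivity, ?_, by field_simp⟩
    rw [div_le_one (by positivity)]
    exact pow_le_pow_left₀ hx hxx 2
  obtain ⟨v, hv0, hv1, hv⟩ : ∃ v : ℝ, 0 ≤ v ∧ v ≤ 1 ∧ v * (y0 : ℝ) = y := by
    refine ⟨y / y0, by positivity, ?_, by field_simp⟩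
    rwa [div_le_one hy0']
  have g1 := evR3_small H.N hx hxx hy hyy hu hv hφ
  have n0 : evR3 H.N (x0 : ℝ) 0 φ = ev (evX (evN H.N x0) 0) φ := by
    have h1 := evR3_nat H.N x0 ((0 : ℕ) : ℝ) φ
    rw [evR_nat] at h1
    simpa using h1
  have n1 : evR3 H.N (x0 : ℝ) (y0 : ℝ) φ = ev (evX (evN H.N x0) y0) φ := by
    rw [evR3_nat, evR_nat]
  rw [n0, n1] at g1
  have p0 : evR H.PX 0 φ = ev (evX H.PX 0) φ := by
    simpa using evR_nat H.PX 0 φ
  have p1 : evR H.PY 0 φ = ev (evX H.PY 0) φ := by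
    simpa using evR_nat H.PY 0 φ
  have q0 := evR_head H.PX (φ := φ) hx hφ (ev_getD_two (H.PX.headD []) hx) (by
    intro h
    rw [h]
    simp)
  have q1 := evR_head H.PY (φ := φ) hy hφ (ev_getD_one (H.PY.headD []) hy) (by
    intro h
    rw [h]
    simp)
  rw [p0] at q0
  rw [p1] at q1
  have q2 : (0 : ℝ) ≤ H.e * y ^ 2 * (H.s + x) ^ 2 := by positivity
  simp only [ev_addL, ev, mul_zero, add_zero, Nat.cast_add, Nat.cast_mul, Nat.cast_pow] at e1 e2 e3 e4
  unfold HD.neg HD.pos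
  have r0 : (((H.PX.headD []).getD 2 0 : ℕ) : ℝ) * x ^ 2 =
      u * (((H.PX.headD []).getD 2 0 : ℕ) * (x0 : ℝ) ^ 2) := by
    rw [← hu]
    ring
  have r1 : (((H.PY.headD []).getD 1 0 : ℕ) : ℝ) * y =
      v * (((H.PY.headD []).getD 1 0 : ℕ) * (y0 : ℝ)) := by
    rw [← hv]
    ring
  rw [r0] at q0
  rw [r1] at q1
  have m1 := mul_le_mul_of_nonneg_left e1 (mul_nonneg (sub_nonneg.2 hu1) (sub_nonneg.2 hv1))
  have m2 := mul_le_mul_of_nonneg_left e2 (mul_nonneg hu0 (sub_nonneg.2 hv1))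
  have m3 := mul_le_mul_of_nonneg_left e3 (mul_nonneg (sub_nonneg.2 hu1) hv0)
  have m4 := mul_le_mul_of_nonneg_left e4 (mul_nonneg hu0 hv0)
  linarith

end Vale.Agent.P224.R2.H533
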