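import Vale.Agent.P224.R2.H533.RowP
import Vale.Agent.P224.R2.H106.UniT
import Vale.Agent.P224.R2.H146.Check
import Vale.Agent.P224.R2.H869.TlQ

/-!
The pointwise inequality from the integer check.
-/

namespace Vale.Agent.P224.R2.H533

open Vale.Agent.P224.R2.H582 Vale.Agent.P224.R2.H869 Vale.Agent.P224.R2.H484

/-- the data of the rows on the half line `x ≥ 0` -/
def rowD (M : Mult) : RowD :=
  ⟨M.lam, max (2 * M.lam ^ 2) (M.lam ^ 2 + M.eta), M.th, M.c1, M.wP, M.wX, M.wF, M.wR1⟩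

theorem cmb_nil (f : ℕ → ℝ) : Mult.cmb [] f = 0 := by
  unfold Mult.cmb
  rw [List.length_nil, Finset.sum_range_zero]

theorem cmb_le {l : List ℚ} (h : ∀ i, (0 : ℝ) ≤ ((l.getD i 0 : ℚ) : ℝ)) {f g : ℕ → ℝ}
    (hfg : ∀ i, f i ≤ g i) : cmbR l f ≤ Mult.cmb l g :=
  Finset.sum_le_sum fun i _ => mul_le_mul_of_nonneg_left (hfg i) (h i)

theorem xx_pos {lam eta th K : ℝ} (hK : 2 * lam ^ 2 ≤ K) {a q t φ : ℝ} (hq : 0 ≤ q)
    (ht : a - (a - q) ^ 2 / 4 = t) :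
    (1 - th) * (φ ^ 2 * q ^ 2) - 3 * lam ^ 2 * (φ ^ 2 * q) - K * φ ^ 2
      - 4 * lam ^ 2 / th * (t * (1 + q)) ≤ XX1 lam eta th a q φ := by
  unfold XX1
  rw [max_eq_left hq, max_eq_right (neg_nonpos.2 hq), ht]
  have h1 := mul_nonneg (sub_nonneg.2 hK) (sq_nonneg φ)
  linarith

theorem xx_neg {lam eta th K : ℝ} (hth : 0 < th) (hth1 : th ≤ 1) (hK : 2 * lam ^ 2 ≤ K)
    (hK2 : lam ^ 2 + eta ≤ K) {a q φ : ℝ} (ha : 0 ≤ a) (hq : q ≤ 0) (hq1 : -1 ≤ q)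
    (ht : 0 ≤ a - (a - q) ^ 2 / 4) :
    -K * φ ^ 2 - 4 * lam ^ 2 / th * (a - a ^ 2 / 4) ≤ XX1 lam eta th a q φ := by
  unfold XX1
  rw [max_eq_right hq, max_eq_left (neg_nonneg.2 hq)]
  have hφ := sq_nonneg φ
  have h1 : (lam ^ 2 + eta) * -q + 2 * lam ^ 2 * (1 + q) ≤ K := by
    have h2 := mul_le_mul_of_nonneg_right hK2 (neg_nonneg.2 hq)
    have h3 := mul_le_mul_of_nonneg_right hK (by linarith : 0 ≤ 1 + q)
    linarith
  have h4 := mul_le_mul_of_nonneg_right h1 hφ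
  have h5 : (a - (a - q) ^ 2 / 4) * (1 + q) ≤ a - a ^ 2 / 4 := by
    have h6 : (a - (a - q) ^ 2 / 4) * (1 + q) ≤ (a - (a - q) ^ 2 / 4) * 1 :=
      mul_le_mul_of_nonneg_left (by linarith) ht
    have h7 := mul_nonneg ha (neg_nonneg.2 hq)
    have h8 := sq_nonneg q
    linarith
  have h9 := mul_le_mul_of_nonneg_left h5 (by positivity : 0 ≤ 4 * lam ^ 2 / th)
  have h10 : 0 ≤ (1 - th) * (φ ^ 2 * q ^ 2) :=
    mul_nonneg (sub_nonneg.2 hth1) (mul_nonneg hφ (sq_nonneg q))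
  linarith

theorem rr_neg (lam : ℝ) (l : ℕ) {q : ℝ} (hq : q ≤ 0) : RR1 lam 1 l q = 0 := by
  unfold RR1
  rw [max_eq_right hq]
  simp

theorem row_eq {M : Mult} (hQ : M.wQ = []) (hR : M.wR0 = []) (a q φ : ℝ) :
    M.row a q φ = M.wP * (φ ^ 2 - M.c1 * a) + M.wX * XX1 M.lam M.eta M.th a q φ
      + Mult.cmb M.wF (fun i => FF1 M.lam i a q φ) + Mult.cmb M.wR1 (fun i => RR1 M.lam 1 i q) := by
  unfold Mult.row
  rw [hQ, hR, cmb_nil, cmb_nil, add_zero, add_zero]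

/-- The rows for `ρ ≥ 1`. -/
theorem row_ge {M : Mult} (hM : M.ok = true) (hQ : M.wQ = []) (hR : M.wR0 = []) {x y : ℝ}
    (hx : 0 ≤ x) (φ : ℝ) :
    rowV (rowD M) x y φ ≤ M.row (y + x ^ 2) (x * (2 + x)) φ := by
  obtain ⟨-, -, -, h4, h5, -, -, h8⟩ := Mult.ok_spec hM
  have hq : 0 ≤ x * (2 + x) := by positivity
  have ht : y + x ^ 2 - (y + x ^ 2 - x * (2 + x)) ^ 2 / 4 = y * (1 + x) - y ^ 2 / 4 := by ring
  have hr : 1 + x * (2 + x) = (1 + x) ^ 2 := by ring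
  have hK : 2 * (M.lam : ℝ) ^ 2 ≤ ((rowD M).K : ℝ) := by
    have h1 : 2 * M.lam ^ 2 ≤ (rowD M).K := le_max_left _ _
    exact_mod_cast h1
  rw [row_eq hQ hR]
  unfold rowV
  refine add_le_add (add_le_add (add_le_add le_rfl (mul_le_mul_of_nonneg_left ?_
    (by exact_mod_cast h4))) (cmb_le h5 fun i => ?_)) (cmb_le h8 fun l => ?_)
  · have h1 := xx_pos (eta := (M.eta : ℝ)) (th := (M.th : ℝ)) (φ := φ) hK hq ht
    rw [hr] at h1
    exact h1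
  · unfold FF1
    rw [ht]
    exact le_rfl
  · unfold RR1
    rw [max_eq_left hq, hr, ← pow_mul, ← pow_mul]
    refine le_of_eq ?_
    change (x * (2 + x)) ^ 4 * (1 + x) ^ (2 * l)
        - (M.lam : ℝ) ^ 2 * ((x * (2 + x)) ^ 3 * (1 + x) ^ (2 * l))
        - 2 * (M.lam : ℝ) ^ 2 * (3 * (x * (2 + x)) ^ 2 * (1 + x) ^ (2 * (l + 1))
          + l * (x * (2 + x)) ^ 3 * (1 + x) ^ (2 * l)) = _
    push_cast
    ring

/-- The rows for `ρ ≤ 1`. -/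
theorem row_le {M : Mult} (hM : M.ok = true) (hQ : M.wQ = []) (hR : M.wR0 = [])
    (hth : M.th ≤ 1) {a q : ℝ} (ha : 0 ≤ a) (hq : q ≤ 0) (hq1 : -1 ≤ q)
    (ht : 0 ≤ a - (a - q) ^ 2 / 4) {φ : ℝ} (hφ : 0 ≤ φ) :
    rowV (rowD M) 0 a φ ≤ M.row a q φ := by
  obtain ⟨-, h2, -, h4, h5, -, -, h8⟩ := Mult.ok_spec hM
  have hK : 2 * (M.lam : ℝ) ^ 2 ≤ ((rowD M).K : ℝ) := by
    have h1 : 2 * M.lam ^ 2 ≤ (rowD M).K := le_max_left _ _
    exact_mod_cast h1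
  have hK2 : (M.lam : ℝ) ^ 2 + M.eta ≤ ((rowD M).K : ℝ) := by
    have h1 : M.lam ^ 2 + M.eta ≤ (rowD M).K := le_max_right _ _
    exact_mod_cast h1
  rw [row_eq hQ hR]
  unfold rowV
  refine add_le_add (add_le_add (add_le_add (le_of_eq ?_) (mul_le_mul_of_nonneg_left ?_
    (by exact_mod_cast h4))) (cmb_le h5 fun i => ?_)) (cmb_le h8 fun l => ?_)
  · change (M.wP : ℝ) * (φ ^ 2 - M.c1 * (a + 0 ^ 2)) = _
    rw [zero_pow two_ne_zero, add_zero]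
  · have h1 := xx_neg (eta := (M.eta : ℝ)) (th := (M.th : ℝ)) (φ := φ) (by exact_mod_cast h2)
      (by exact_mod_cast hth) hK hK2 ha hq hq1 ht
    refine le_trans (le_of_eq ?_) h1
    change (1 - (M.th : ℝ)) * (φ ^ 2 * (0 * (2 + 0)) ^ 2) - 3 * M.lam ^ 2 * (φ ^ 2 * (0 * (2 + 0)))
      - (rowD M).K * φ ^ 2 - 4 * M.lam ^ 2 / M.th * ((a * (1 + 0) - a ^ 2 / 4) * (1 + 0) ^ 2) = _
    ring
  · unfold FF1
    have h6 : a - (a - q) ^ 2 / 4 ≤ a * (1 + 0) - a ^ 2 / 4 := by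
      have h7 := mul_nonneg ha (neg_nonneg.2 hq)
      have h8 := sq_nonneg q
      linarith
    have h9 := mul_le_mul_of_nonneg_left h6 (by positivity : (0 : ℝ) ≤ (4 * i + 2) * φ ^ (2 * i))
    change φ ^ (2 * i + 2) - (4 * i + 2) * φ ^ (2 * i) * (a * (1 + 0) - a ^ 2 / 4)
      - 2 * (M.lam : ℝ) * φ ^ (2 * i + 1) ≤ _
    linarith
  · rw [rr_neg _ _ hq]
    refine le_of_eq ?_
    rw [zero_mul, zero_pow (by norm_num), zero_pow (by norm_num), zero_pow (by norm_num)]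
    ring

theorem tabV_eq (B : TabD) (x y φ : ℝ) : tabV B x y φ =
    PL B.j (fun i k => (B.al.getD i []).getD k 0) (fun i k => (B.be.getD i []).getD k 0)
      B.ra B.rb (y + x ^ 2) y φ := rfl

/-- The reduction to the half line `x ≥ 0`. -/
theorem ptIneq_of_row (m : ℕ) {M : Mult} (hM : M.ok = true) (hQ : M.wQ = []) (hR : M.wR0 = [])
    (hth : M.th ≤ 1) {G : ℝ → ℝ → ℝ → ℝ} {c : ℝ}
    (h : ∀ x y φ : ℝ, 0 ≤ x → 0 ≤ y → y ≤ 4 * (1 + x) → 0 ≤ φ →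
      G (y + x ^ 2) y φ ≤ c * (y + x ^ 2) + rowV (rowD M) x y φ) : PtIneq m G M.row c := by
  intro ρ y φ hρ hy hyρ hφ _
  rcases le_or_gt 1 ρ with h1 | h1
  · rw [if_pos h1]
    have hx : 0 ≤ ρ - 1 := sub_nonneg.2 h1
    have h2 := h (ρ - 1) y φ hx hy (by linarith) hφ
    have h3 := row_ge hM hQ hR (y := y) hx φ
    have e1 : (1 - ρ) ^ 2 = (ρ - 1) ^ 2 := by ring
    have e2 : ρ ^ 2 - 1 = (ρ - 1) * (2 + (ρ - 1)) := by ring
    rw [e1, e2]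
    exact h2.trans (add_le_add le_rfl h3)
  · rw [if_neg (not_le.2 h1)]
    have ha : 0 ≤ y + (1 - ρ) ^ 2 := by positivity
    have ha4 : y + (1 - ρ) ^ 2 ≤ 4 * (1 + 0) := by nlinarith
    have hq : ρ ^ 2 - 1 ≤ 0 := by nlinarith
    have hq1 : -1 ≤ ρ ^ 2 - 1 := by linarith [sq_nonneg ρ]
    have ht : 0 ≤ y + (1 - ρ) ^ 2 - (y + (1 - ρ) ^ 2 - (ρ ^ 2 - 1)) ^ 2 / 4 := by
      have e1 : y + (1 - ρ) ^ 2 - (y + (1 - ρ) ^ 2 - (ρ ^ 2 - 1)) ^ 2 / 4 =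
          y * (4 * ρ - y) / 4 := by ring
      rw [e1]
      have := mul_nonneg hy (sub_nonneg.2 hyρ)
      linarith
    have h2 := h 0 (y + (1 - ρ) ^ 2) φ le_rfl ha ha4 hφ
    have h3 := row_le hM hQ hR hth ha hq hq1 ht hφ
    rw [zero_pow two_ne_zero, add_zero] at h2
    exact h2.trans (add_le_add le_rfl h3)

/-- **The pointwise inequality** from the integer check. -/
theorem ptIneq_of_check (m : ℕ) {M : Mult} (hM : M.ok = true) (hQ : M.wQ = []) (hR : M.wR0 = [])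
    (hth : M.th ≤ 1) {B : TabD} {H : HD} {Ct : HD.Cert} {c C : ℚ}
    (hc : cmpOK H (rowD M) B c C = true) (hH : H.check Ct = true) :
    PtIneq m (PL B.j (fun i k => (B.al.getD i []).getD k 0) (fun i k => (B.be.getD i []).getD k 0)
      B.ra B.rb) M.row c := by
  have hU : UniSound := H106.uniSound
  refine ptIneq_of_row m hM hQ hR hth fun x y φ hx hy hyx hφ => ?_
  rw [← tabV_eq]
  exact row_of_check hc (xt := Ct.xt)
    (fun x y φ h1 h2 h3 h4 h5 => H146.check_lt hU H hH h1 h2 h3 h4 h5)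
    (fun r φ h1 h2 => H146.check_ge hU H hH h1 h2) hx hy hyx hφ

end Vale.Agent.P224.R2.H533
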