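import Vale.Agent.P224.R2.H869.TlBlk
import Vale.Agent.P224.R2.H876.TbG

/-!
The block from 400 on.
-/

namespace Vale.Agent.P224.R2.H533

open Vale.Agent.P224.R2.H484 Vale.Agent.P224.R2.H876 Vale.Agent.P224.R2.H869

/-- the block from 400 on -/
def bD400 : BlkS where
  m1 := 400
  m2 := 0
  L := Ld400
  Lm := Linf
  c1 := 193 / 10
  c2 := 133 / 10
  η := 1 / 20
  β := 39 / 50
  K := 57 / 50
  jj := 5
  i1 := 11
  i2 := 7
  X2 := tN X2d400
  X1 := tN X1d400
  X0 := tN X0d400
  z2 := z2d400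
  z1 := z1d400
  z0 := z0d400
  ok := okd400
  cells := cellsd400
  coef := coefd400
  mom := fun m q h1 _ => MM_le_all (by omega) q

end Vale.Agent.P224.R2.H533
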