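import Vale.Agent.P224.R2.H582.Tp
import Mathlib.Tactic

/-!
Soundness of the check of the boxes: the part with natural coefficients to be subtracted is below
its chords, the other part above its tangents.
-/

namespace Vale.Agent.P224.R2.H533

open Vale.Agent.P224.R2.H582

theorem fN_eq (n : ℕ) (f : ℕ → Bool) : fN n f = f n := rfl

theorem fL_eq (l : List ℕ) (f : List ℕ → Bool) : fL l f = f l := by
  induction l generalizing f with
  | nil => rfl
  | cons a l ih => simp only [fL_cons, fN_eq, ih]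

theorem fLL_eq (l : List (List ℕ)) (f : List (List ℕ) → Bool) : fLL l f = f l := by
  induction l generalizing f with
  | nil => rfl
  | cons a l ih => simp only [fLL_cons, fL_eq, ih]

theorem ev_addL (a b : List ℕ) (x : ℝ) : ev (addL a b) x = ev a x + ev b x := by
  induction a generalizing b with
  | nil => simp [addL_nil, ev]
  | cons a l ih =>
    cases b with
    | nil => simp [addL_cons_nil, ev]
    | cons b r =>
      simp only [addL_cons, ev, ih, Nat.cast_add]
      ring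

theorem ev_smulL (k : ℕ) (l : List ℕ) (x : ℝ) : ev (smulL k l) x = k * ev l x := by
  induction l with
  | nil => simp [smulL_nil, ev]
  | cons a l ih =>
    simp only [smulL_cons, ev, ih, Nat.cast_mul]
    ring

theorem ev_nat (l : List ℕ) (n : ℕ) : ev l (n : ℝ) = (pv l n : ℝ) := by
  induction l with
  | nil => simp [ev, pv_nil]
  | cons a l ih => simp only [ev, pv_cons, ih, Nat.cast_add, Nat.cast_mul]

theorem ev_nonneg (l : List ℕ) {x : ℝ} (hx : 0 ≤ x) : 0 ≤ ev l x := by
  induction l with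
  | nil => simp [ev]
  | cons a l ih =>
    simp only [ev]
    positivity

theorem ev_der_succ (k : ℕ) (l : List ℕ) (x : ℝ) :
    ev (der (k + 1) l) x = ev (der k l) x + ev l x := by
  induction l generalizing k with
  | nil => simp [der_nil, ev]
  | cons a l ih =>
    simp only [der_cons, ev, ih (k + 1), Nat.cast_add, Nat.cast_mul, Nat.cast_one]
    ring

theorem ev_der_one (l : List ℕ) (x : ℝ) :
    ev (der 1 l) x = ev l x + x * ev (der 1 l.tail) x := by
  cases l with
  | nil => simp [der_nil, ev]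
  | cons a l =>
    simp only [der_cons, ev, List.tail_cons, ev_der_succ 1 l x, Nat.cast_mul, Nat.cast_one]
    ring

/-- Polynomials with natural coefficients are above their tangents. -/
theorem ev_tangent (l : List ℕ) {x m : ℝ} (hx : 0 ≤ x) (hm : 0 ≤ m) :
    ev l m + ev (der 1 l.tail) m * (x - m) ≤ ev l x := by
  induction l with
  | nil => simp [der_nil, ev]
  | cons a l ih =>
    have h1 := ev_der_one l m
    have h2 := ev_nonneg (der 1 l.tail) hm
    simp only [ev, List.tail_cons]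
    rw [h1]
    nlinarith [mul_nonneg hx (sub_nonneg.2 ih), mul_nonneg h2 (sq_nonneg (x - m))]

/-- Polynomials with natural coefficients are below their chords. -/
theorem ev_chord (l : List ℕ) {a b s t : ℝ} (ha : 0 ≤ a) (hb : 0 ≤ b) (hs : 0 ≤ s) (ht : 0 ≤ t)
    (hst : s + t = 1) : ev l (s * a + t * b) ≤ s * ev l a + t * ev l b := by
  have hx : 0 ≤ s * a + t * b := by positivity
  have h1 := mul_le_mul_of_nonneg_left (ev_tangent l ha hx) hs
  have h2 := mul_le_mul_of_nonneg_left (ev_tangent l hb hx) ht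
  have h3 : s = 1 - t := by linarith
  subst h3
  nlinarith [h1, h2]

theorem evR_nat (l : List (List ℕ)) (n : ℕ) (φ : ℝ) : evR l (n : ℝ) φ = ev (evX l n) φ := by
  induction l with
  | nil => simp [evR, evX, ev]
  | cons r l ih =>
    have h : evX (r :: l) n = pv r n :: evX l n := rfl
    rw [h, evR, ih, ev, ev_nat]

theorem evR_chord (l : List (List ℕ)) {a b s t φ : ℝ} (ha : 0 ≤ a) (hb : 0 ≤ b) (hs : 0 ≤ s)
    (ht : 0 ≤ t) (hst : s + t = 1) (hφ : 0 ≤ φ) :
    evR l (s * a + t * b) φ ≤ s * evR l a φ + t * evR l b φ := by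
  induction l with
  | nil => simp [evR]
  | cons r l ih =>
    simp only [evR]
    nlinarith [ev_chord r ha hb hs ht hst, mul_le_mul_of_nonneg_left ih hφ]

theorem evR3_nat (l : List (List (List ℕ))) (n : ℕ) (y φ : ℝ) :
    evR3 l (n : ℝ) y φ = evR (evN l n) y φ := by
  induction l with
  | nil => simp [evR3, evN, evR]
  | cons r l ih =>
    have h : evN (r :: l) n = evX r n :: evN l n := rfl
    rw [h, evR3, ih, evR, evR_nat]

theorem evR3_chord (l : List (List (List ℕ))) {a b s t y φ : ℝ} (ha : 0 ≤ a) (hb : 0 ≤ b)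
    (hs : 0 ≤ s) (ht : 0 ≤ t) (hst : s + t = 1) (hy : 0 ≤ y) (hφ : 0 ≤ φ) :
    evR3 l (s * a + t * b) y φ ≤ s * evR3 l a y φ + t * evR3 l b y φ := by
  induction l with
  | nil => simp [evR3]
  | cons r l ih =>
    simp only [evR3]
    nlinarith [evR_chord r ha hb hs ht hst hy, mul_le_mul_of_nonneg_left ih hφ]

theorem evR_tangent (l : List (List ℕ)) {x m φ : ℝ} (hx : 0 ≤ x) (hm : 0 ≤ m) (hφ : 0 ≤ φ) :
    evR l m φ + evR (derX l) m φ * (x - m) ≤ evR l x φ := by
  induction l with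
  | nil => simp [evR, derX]
  | cons r l ih =>
    have h : derX (r :: l) = der 1 r.tail :: derX l := rfl
    rw [h]
    simp only [evR]
    nlinarith [ev_tangent r hx hm, mul_le_mul_of_nonneg_left ih hφ]

/-- The tangent at a natural number, at the ends of an interval. -/
theorem evR_tangent_ends (l : List (List ℕ)) {a b m : ℕ} {s t φ : ℝ} (ham : a ≤ m) (hmb : m ≤ b)
    (hs : 0 ≤ s) (ht : 0 ≤ t) (hst : s + t = 1) (hφ : 0 ≤ φ) :
    s * (ev (evX l m) φ - ev (smulL (m - a) (evX (derX l) m)) φ) +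
      t * ev (addL (evX l m) (smulL (b - m) (evX (derX l) m))) φ ≤ evR l (s * a + t * b) φ := by
  have hx : (0 : ℝ) ≤ s * a + t * b := by positivity
  have h1 := evR_tangent l hx (Nat.cast_nonneg m) hφ
  rw [evR_nat, evR_nat] at h1
  rw [ev_addL, ev_smulL, ev_smulL, Nat.cast_sub ham, Nat.cast_sub hmb]
  have h3 : s = 1 - t := by linarith
  subst h3
  refine le_trans (le_of_eq ?_) h1
  ring

/-- The bound of the check of the cells in one variable. -/
def UniSound : Prop := ∀ nodes P N, uniB nodes P N = true → ∀ x : ℝ, 0 ≤ x → ev N x ≤ ev P x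

theorem exists_weights {a b x : ℝ} (hab : a < b) (h1 : a ≤ x) (h2 : x ≤ b) :
    ∃ s t : ℝ, 0 ≤ s ∧ 0 ≤ t ∧ s + t = 1 ∧ s * a + t * b = x := by
  have h3 : 0 < b - a := sub_pos.2 hab
  refine ⟨(b - x) / (b - a), (x - a) / (b - a), div_nonneg (by linarith) h3.le,
    div_nonneg (by linarith) h3.le, ?_, ?_⟩
  · field_simp
    ring
  · field_simp
    ring

theorem evR_PY1 (H : HD) (x1 : ℕ) (y φ : ℝ) :
    evR (H.PY1 x1) y φ = evR H.PY y φ + H.e * y ^ 2 * (H.s + x1) ^ 2 := by
  unfold HD.PY1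
  cases H.PY with
  | nil =>
    simp only [evR, ev]
    push_cast
    ring
  | cons r l =>
    simp only [evR, ev_addL, ev]
    push_cast
    ring

/-- Soundness of the boxes of a column. -/
theorem boxes_sound (hU : UniSound) {nodes : List (ℕ × ℕ)} {Q Q' N1 N2 : List (List ℕ)}
    {P1 E1 P2 E2 : List ℕ} (hQ : Q' = derX Q) (ys : List ℕ) (y1 : ℕ)
    (h : HD.boxes nodes Q Q' N1 N2 P1 E1 P2 E2 y1 ys = true) (hys : ys ≠ []) {y φ s t : ℝ}
    (hs : 0 ≤ s) (ht : 0 ≤ t) (hst : s + t = 1) (hφ : 0 ≤ φ) (hy : (y1 : ℝ) ≤ y)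
    (hy' : y ≤ (ys.getLastD y1 : ℕ)) :
    s * evR N1 y φ + t * evR N2 y φ ≤
      s * (ev P1 φ - ev E1 φ) + t * (ev P2 φ - ev E2 φ) + evR Q y φ := by
  induction ys generalizing y1 with
  | nil => exact absurd rfl hys
  | cons y2 ys ih =>
    rw [HD.boxes, Bool.and_eq_true, Bool.and_eq_true] at h
    obtain ⟨⟨h12, hb⟩, hrec⟩ := h
    have h12' : y1 < y2 := by simpa [Nat.blt_eq] using h12
    rw [List.getLastD_cons] at hy'
    rcases le_or_gt y (y2 : ℝ) with hyy | hyy
    · simp only [fL_eq, Bool.and_eq_true] at hb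
      obtain ⟨⟨⟨c1, c2⟩, c3⟩, c4⟩ := hb
      obtain ⟨a, b, ha, hb, hab, hxy⟩ := exists_weights (Nat.cast_lt (α := ℝ).2 h12') hy hyy
      have e1 := hU _ _ _ c1 φ hφ
      have e2 := hU _ _ _ c2 φ hφ
      have e3 := hU _ _ _ c3 φ hφ
      have e4 := hU _ _ _ c4 φ hφ
      rw [hQ] at e1 e2 e3 e4
      have h0 : (0 : ℝ) ≤ y1 := Nat.cast_nonneg _
      have h0' : (0 : ℝ) ≤ y2 := Nat.cast_nonneg _
      have g1 := evR_chord N1 h0 h0' ha hb hab hφ
      have g2 := evR_chord N2 h0 h0' ha hb hab hφ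
      have g3 := evR_tangent_ends Q (a := y1) (b := y2) (m := (y1 + y2) / 2) (by omega) (by omega)
        ha hb hab hφ
      rw [hxy] at g1 g2 g3
      rw [evR_nat, evR_nat] at g1 g2
      simp only [ev_addL] at e1 e2 e3 e4 g3
      have k1 := mul_le_mul_of_nonneg_left g1 hs
      have k2 := mul_le_mul_of_nonneg_left g2 ht
      have m1 := mul_le_mul_of_nonneg_left e1 (mul_nonneg hs ha)
      have m2 := mul_le_mul_of_nonneg_left e2 (mul_nonneg hs hb)
      have m3 := mul_le_mul_of_nonneg_left e3 (mul_nonneg ht ha)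
      have m4 := mul_le_mul_of_nonneg_left e4 (mul_nonneg ht hb)
      have hs' : s = 1 - t := by linarith
      have ha' : a = 1 - b := by linarith
      subst hs' ha'
      nlinarith [k1, k2, m1, m2, m3, m4, g3]
    · refine ih y2 hrec ?_ hyy.le hy'
      rintro rfl
      simp only [List.getLastD_nil] at hy'
      exact absurd hy' (not_le.2 hyy)

/-- **Soundness of a column.** -/
theorem colOK_sound (hU : UniSound) (H : HD) {nodes : List (ℕ × ℕ)} {x1 x2 y0 : ℕ} {ys : List ℕ}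
    (h : H.colOK nodes x1 x2 y0 ys = true) (hx : x1 < x2) (hys : ys ≠ []) {x y φ : ℝ}
    (hx1 : (x1 : ℝ) ≤ x) (hx2 : x ≤ x2) (hy0 : (y0 : ℝ) ≤ y) (hy : y ≤ (ys.getLastD 0 : ℕ))
    (hφ : 0 ≤ φ) : H.neg x y φ ≤ H.pos x y φ := by
  obtain ⟨s, t, hs, ht, hst, hxx⟩ := exists_weights (Nat.cast_lt (α := ℝ).2 hx) hx1 hx2
  have hy' : y ≤ (ys.getLastD y0 : ℕ) := by
    cases ys with
    | nil => exact absurd rfl hys
    | cons a l =>
      rw [List.getLastD_cons] at hy ⊢
      exact hy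
  simp only [HD.colOK, fL_eq, fLL_eq] at h
  have h0 : (0 : ℝ) ≤ x1 := Nat.cast_nonneg _
  have h0' : (0 : ℝ) ≤ x2 := Nat.cast_nonneg _
  have hy00 : (0 : ℝ) ≤ y := (Nat.cast_nonneg y0).trans hy0
  have h1 := boxes_sound hU rfl ys y0 h hys hs ht hst hφ hy0 hy'
  have h2 := evR3_chord H.N h0 h0' hs ht hst hy00 hφ
  have h3 := evR_tangent_ends H.PX (a := x1) (b := x2) (m := (x1 + x2) / 2) (by omega) (by omega)
    hs ht hst hφ
  rw [hxx] at h2 h3
  rw [evR3_nat, evR3_nat] at h2
  rw [evR_PY1] at h1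
  have h4 : (H.e : ℝ) * y ^ 2 * (H.s + x1) ^ 2 ≤ H.e * y ^ 2 * (H.s + x) ^ 2 := by
    refine mul_le_mul_of_nonneg_left ?_ (by positivity)
    refine pow_le_pow_left₀ (by positivity) ?_ 2
    linarith
  have h5 : ev ([] : List ℕ) φ = 0 := rfl
  rw [h5] at h1
  unfold HD.neg HD.pos
  linarith

/-- **Soundness of the columns**, outside the box at the origin. -/
theorem cols_sound (hU : UniSound) (H : HD) {nodes : List (ℕ × ℕ)} {X0 Y0 : ℕ}
    (l : List (ℕ × ℕ × List ℕ)) (x1 xt : ℕ) (h : H.cols nodes X0 Y0 x1 l xt = true) {x y φ : ℝ}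
    (hx1 : (x1 : ℝ) ≤ x) (hxt : x < xt) (hy : 0 ≤ y) (hy4 : y ≤ 4 * (H.s + x)) (hφ : 0 ≤ φ) :
    (x ≤ X0 ∧ y ≤ Y0) ∨ H.neg x y φ ≤ H.pos x y φ := by
  induction l generalizing x1 with
  | nil =>
    rw [HD.cols, Nat.beq_eq] at h
    subst h
    exact absurd hxt (not_lt.2 hx1)
  | cons c l ih =>
    obtain ⟨x2, y0, ys⟩ := c
    simp only [HD.cols, Bool.and_eq_true, Bool.or_eq_true] at h
    obtain ⟨⟨⟨⟨h1, h2⟩, h3⟩, h4⟩, h5⟩ := h
    have h1' : x1 < x2 := by simpa [Nat.blt_eq] using h1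
    have h3' : 4 * (H.s + x2) ≤ ys.getLastD 0 := Nat.le_of_ble_eq_true h3
    rcases le_or_gt x (x2 : ℝ) with hx | hx
    · have hys : ys ≠ [] := by
        rintro rfl
        simp only [List.getLastD_nil] at h3'
        omega
      have hy' : y ≤ (ys.getLastD 0 : ℕ) := by
        have h6 : ((4 * (H.s + x2) : ℕ) : ℝ) ≤ (ys.getLastD 0 : ℕ) := Nat.cast_le.2 h3'
        push_cast at h6
        linarith
      rcases le_or_gt (y0 : ℝ) y with hy0 | hy0
      · exact Or.inr (colOK_sound hU H h4 h1' hys hx1 hx hy0 hy' hφ)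
      · left
        rcases h2 with h2 | h2
        · have h7 : y0 = 0 := Nat.eq_of_beq_eq_true h2
          subst h7
          rw [Nat.cast_zero] at hy0
          exact absurd hy (not_le.2 hy0)
        · have h7 : (x2 : ℝ) ≤ X0 := Nat.cast_le.2 (Nat.le_of_ble_eq_true h2.1)
          have h8 : (y0 : ℝ) ≤ Y0 := Nat.cast_le.2 (Nat.le_of_ble_eq_true h2.2)
          exact ⟨hx.trans h7, hy0.le.trans h8⟩
    · exact ih x2 h5 hx.le

end Vale.Agent.P224.R2.H533
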