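import Vale.Agent.P224.R2.H533.D400k0365
import Vale.Agent.P224.R2.H533.D400k0425
import Vale.Agent.P224.R2.H533.D400k0475
import Vale.Agent.P224.R2.H533.D400k0556
import Vale.Agent.P224.R2.H533.D400k067
import Vale.Agent.P224.R2.H533.D400k0756
import Vale.Agent.P224.R2.H533.D400k0815
import Vale.Agent.P224.R2.H533.D400k0875
import Vale.Agent.P224.R2.H533.D400k0932
import Vale.Agent.P224.R2.H533.D400k1025
import Vale.Agent.P224.R2.H533.D400k1145
import Vale.Agent.P224.R2.H533.D400k13
import Vale.Agent.P224.R2.H135.RelM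
import Vale.Agent.P224.R2.H684.AbsC5

/-!
All relative tails of the block from 400 on.
-/

namespace Vale.Agent.P224.R2.H533

open MeasureTheory Set Filter Function Real Module Matrix Vale.Agent.P224
  Vale.Agent.P224.R2.H820 Vale.Agent.P224.R2.H582 Vale.Agent.P224.R2.H627
  Vale.Agent.P224.R2.H728 Vale.Agent.P224.R2.H484 Vale.Agent.P224.R2.H925
open Vale.Agent.P224.R2.H869 (BlkS CertM)
open Vale.Agent.P224.R2.H135 (coverOK relU_cover)
open scoped Topology RealInnerProductSpace ContDiff Manifold

set_option linter.unusedSectionVars false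

/-- the certificates of the block from 400 on -/
def certsD400 : List (CertM bD400) :=
  [D400k0365.cert, D400k0425.cert, D400k0475.cert, D400k0556.cert, D400k067.cert, D400k0756.cert,
    D400k0815.cert, D400k0875.cert, D400k0932.cert, D400k1025.cert, D400k1145.cert, D400k13.cert]

/-- the relative tails used from 400 on -/
def relsD400 : List (ℚ × ℚ) :=
  [(73 / 2000, 17 / 2500), (17 / 400, 77 / 10000), (19 / 400, 21 / 2500), (139 / 2500, 49 / 5000),
    (67 / 1000, 119 / 10000), (189 / 2500, 139 / 10000), (163 / 2000, 77 / 5000),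
    (7 / 80, 169 / 10000), (233 / 2500, 93 / 5000), (41 / 400, 43 / 2000),
    (229 / 2000, 257 / 10000), (13 / 100, 91 / 2000)]

theorem cover_D400 : coverOK (65 / 1000000) certsD400 relsD400 = true := by decide +kernel

section

variable {V W M : Type*} [NormedAddCommGroup V] [InnerProductSpace ℝ V] [FiniteDimensional ℝ V]
  [NormedAddCommGroup W] [InnerProductSpace ℝ W] [FiniteDimensional ℝ W]
  [TopologicalSpace M] [ChartedSpace V M]
  [MeasurableSpace V] [BorelSpace V] [MeasurableSpace M] [BorelSpace M]
  [MeasurableSpace W] [BorelSpace W] [IsManifold 𝓘(ℝ, V) ∞ M]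
  [CompactSpace M] [T2Space M]

/-- **the relative tails from 400 on**, for every list covered by the certificates -/
theorem relU_D400_of [Nonempty M] {rels : List (ℚ × ℚ)}
    (hc : coverOK (65 / 1000000) certsD400 rels = true) (h400 : 400 ≤ finrank ℝ V)
    (hW : finrank ℝ W = finrank ℝ V + 2)
    {F : M → W} (hF : SphImm V F) (hmin : ∀ x n, IsUnitNormal V F x n → meanCurv V F x n = 0)
    {ν : ℝ} :
    H925.RelU (193 / 10 : ℚ) (133 / 10 : ℚ) V W M rels ν (finrank ℝ V) F :=
  relU_cover (B := bD400) hc (n1 := 400) (x := 0) H684.okS_400 (by norm_num) h400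
    (by push_cast; positivity) (by norm_num [bD400]) (by omega) hW hF hmin h400 (Or.inl rfl)

/-- **the relative tails from 400 on** -/
theorem relU_D400 [Nonempty M] (h400 : 400 ≤ finrank ℝ V) (hW : finrank ℝ W = finrank ℝ V + 2)
    {F : M → W} (hF : SphImm V F) (hmin : ∀ x n, IsUnitNormal V F x n → meanCurv V F x n = 0)
    {ν : ℝ} :
    H925.RelU (193 / 10 : ℚ) (133 / 10 : ℚ) V W M relsD400 ν (finrank ℝ V) F :=
  relU_D400_of cover_D400 h400 hW hF hmin

end

end Vale.Agent.P224.R2.H533
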