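import Mathlib.Tactic
import Mathlib.Data.Real.Basic

/-!
Polynomials in three variables with rational coefficients as nested lists, with computable
operations and their values at real numbers.
-/

namespace Vale.Agent.P224.R2.H533

section gen

variable {R : Type}

/-- value of a list of coefficients, lowest first; `e` is the value of a coefficient -/
noncomputable def evG (e : R → ℝ) (t : ℝ) : List R → ℝ
  | [] => 0
  | a :: l => e a + t * evG e t l

/-- sum -/
def addG (add : R → R → R) : List R → List R → List R
  | [], b => b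
  | a :: l, [] => a :: l
  | a :: l, b :: r => add a b :: addG add l r

/-- product -/
def mulG (add mul : R → R → R) (z : R) : List R → List R → List R
  | [], _ => []
  | a :: l, b => addG add (b.map (mul a)) (z :: mulG add mul z l b)

/-- comparison of the coefficients -/
def leG (neg pos : R → Bool) (le : R → R → Bool) : List R → List R → Bool
  | [], b => b.all pos
  | a :: l, [] => neg a && leG neg pos le l []
  | a :: l, b :: r => le a b && leG neg pos le l r

variable {e : R → ℝ} {t : ℝ} {add mul : R → R → R} {z : R}

theorem evG_add (h : ∀ a b, e (add a b) = e a + e b) (a b : List R) :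
    evG e t (addG add a b) = evG e t a + evG e t b := by
  induction a generalizing b with
  | nil => simp [addG, evG]
  | cons a l ih =>
    cases b with
    | nil => simp [addG, evG]
    | cons b r =>
      simp only [addG, evG, ih, h]
      ring

theorem evG_map (h : ∀ a b, e (mul a b) = e a * e b) (a : R) (b : List R) :
    evG e t (b.map (mul a)) = e a * evG e t b := by
  induction b with
  | nil => simp [evG]
  | cons b r ih =>
    simp only [List.map_cons, evG, ih, h]
    ring

theorem evG_mul (h : ∀ a b, e (add a b) = e a + e b) (h' : ∀ a b, e (mul a b) = e a * e b)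
    (hz : e z = 0) (a b : List R) :
    evG e t (mulG add mul z a b) = evG e t a * evG e t b := by
  induction a with
  | nil => simp [mulG, evG]
  | cons a l ih =>
    simp only [mulG, evG, evG_add h, evG_map h', ih, hz]
    ring

variable {neg pos : R → Bool} {le : R → R → Bool}

theorem evG_pos (hpos : ∀ a, pos a = true → 0 ≤ e a) (ht : 0 ≤ t) (b : List R)
    (h : b.all pos = true) : 0 ≤ evG e t b := by
  induction b with
  | nil => simp [evG]
  | cons b r ih =>
    simp only [List.all_cons, Bool.and_eq_true] at h
    simp only [evG]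
    have h1 := hpos b h.1
    have h2 := ih h.2
    positivity

theorem evG_le (hneg : ∀ a, neg a = true → e a ≤ 0) (hpos : ∀ a, pos a = true → 0 ≤ e a)
    (hle : ∀ a b, le a b = true → e a ≤ e b) (ht : 0 ≤ t) (a b : List R)
    (h : leG neg pos le a b = true) : evG e t a ≤ evG e t b := by
  induction a generalizing b with
  | nil =>
    rw [leG] at h
    simpa [evG] using evG_pos hpos ht b h
  | cons a l ih =>
    cases b with
    | nil =>
      simp only [leG, Bool.and_eq_true] at h
      have h1 := hneg a h.1
      have h2 := ih [] h.2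
      simp only [evG] at h2 ⊢
      nlinarith
    | cons b r =>
      simp only [leG, Bool.and_eq_true] at h
      simp only [evG]
      exact add_le_add (hle a b h.1) (mul_le_mul_of_nonneg_left (ih r h.2) ht)

end gen

/-- polynomials: a list over the power of `φ` of lists over the power of `y` of lists over the power
of `x` -/
abbrev P3 : Type := List (List (List ℚ))

namespace P3

/-- value -/
noncomputable def val (p : P3) (x y φ : ℝ) : ℝ :=
  evG (evG (evG (fun q : ℚ => (q : ℝ)) x) y) φ p

/-- sum -/
def add (p q : P3) : P3 := addG (addG (addG (· + ·))) p q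

/-- product -/
def mul (p q : P3) : P3 :=
  mulG (addG (addG (· + ·))) (mulG (addG (· + ·)) (mulG (· + ·) (· * ·) 0) []) [] p q

/-- constant -/
def cst (c : ℚ) : P3 := [[[c]]]

/-- multiple of the variable `x` -/
def vx (c : ℚ) : P3 := [[[0, c]]]

/-- multiple of the variable `y` -/
def vy (c : ℚ) : P3 := [[[], [c]]]

/-- multiple of the variable `φ` -/
def vf (c : ℚ) : P3 := [[], [[c]]]

/-- multiple -/
def smul (c : ℚ) (p : P3) : P3 := p.map fun r => r.map fun l => l.map fun a => c * a

/-- power -/
def pow (p : P3) : ℕ → P3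
  | 0 => cst 1
  | n + 1 => mul p (pow p n)

/-- comparison of the coefficients -/
def le (p q : P3) : Bool :=
  leG (fun r => r.all fun l => l.all fun a => decide (a ≤ 0))
    (fun r => r.all fun l => l.all fun a => decide (0 ≤ a))
    (leG (fun l => l.all fun a => decide (a ≤ 0)) (fun l => l.all fun a => decide (0 ≤ a))
      (leG (fun a => decide (a ≤ 0)) (fun a => decide (0 ≤ a)) (fun a b => decide (a ≤ b)))) p q

variable (p q : P3) (x y φ : ℝ)

theorem e1_add (a b : List ℚ) : evG (fun q : ℚ => (q : ℝ)) x (addG (· + ·) a b) =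
    evG (fun q : ℚ => (q : ℝ)) x a + evG (fun q : ℚ => (q : ℝ)) x b :=
  evG_add (fun a b => by push_cast; ring) a b

theorem e1_mul (a b : List ℚ) : evG (fun q : ℚ => (q : ℝ)) x (mulG (· + ·) (· * ·) 0 a b) =
    evG (fun q : ℚ => (q : ℝ)) x a * evG (fun q : ℚ => (q : ℝ)) x b :=
  evG_mul (fun a b => by push_cast; ring) (fun a b => by push_cast; ring) (by simp) a b

theorem e2_add (a b : List (List ℚ)) :
    evG (evG (fun q : ℚ => (q : ℝ)) x) y (addG (addG (· + ·)) a b) =
    evG (evG (fun q : ℚ => (q : ℝ)) x) y a + evG (evG (fun q : ℚ => (q : ℝ)) x) y b :=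
  evG_add (e1_add x) a b

theorem e2_mul (a b : List (List ℚ)) : evG (evG (fun q : ℚ => (q : ℝ)) x) y
      (mulG (addG (· + ·)) (mulG (· + ·) (· * ·) 0) [] a b) =
    evG (evG (fun q : ℚ => (q : ℝ)) x) y a * evG (evG (fun q : ℚ => (q : ℝ)) x) y b :=
  evG_mul (e1_add x) (e1_mul x) rfl a b

theorem val_add : (add p q).val x y φ = p.val x y φ + q.val x y φ :=
  evG_add (e2_add x y) p q

theorem val_mul : (mul p q).val x y φ = p.val x y φ * q.val x y φ :=
  evG_mul (e2_add x y) (e2_mul x y) rfl p q

theorem val_cst (c : ℚ) : (cst c).val x y φ = c := by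
  simp [cst, val, evG]

theorem val_vx (c : ℚ) : (vx c).val x y φ = c * x := by
  simp [vx, val, evG]
  ring

theorem val_vy (c : ℚ) : (vy c).val x y φ = c * y := by
  simp [vy, val, evG]
  ring

theorem val_vf (c : ℚ) : (vf c).val x y φ = c * φ := by
  simp [vf, val, evG]
  ring

theorem evG_smul {R : Type} {e : R → ℝ} {t c : ℝ} {f : R → R} (h : ∀ a, e (f a) = c * e a)
    (l : List R) : evG e t (l.map f) = c * evG e t l := by
  induction l with
  | nil => simp [evG]
  | cons a l ih =>
    simp only [List.map_cons, evG, ih, h]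
    ring

theorem val_smul (c : ℚ) : (smul c p).val x y φ = c * p.val x y φ :=
  evG_smul (fun a => evG_smul (fun a => evG_smul (fun a => by push_cast; ring) a) a) p

theorem val_pow (n : ℕ) : (pow p n).val x y φ = p.val x y φ ^ n := by
  induction n with
  | zero => simp [pow, val_cst]
  | succ n ih => rw [pow, val_mul, ih, pow_succ']

theorem evG_neg {R : Type} {e : R → ℝ} {t : ℝ} {neg : R → Bool}
    (hneg : ∀ a, neg a = true → e a ≤ 0) (ht : 0 ≤ t) (b : List R) (h : b.all neg = true) :
    evG e t b ≤ 0 := by
  induction b with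
  | nil => simp [evG]
  | cons b r ih =>
    simp only [List.all_cons, Bool.and_eq_true] at h
    simp only [evG]
    have h1 := hneg b h.1
    have h2 := ih h.2
    nlinarith

/-- Comparison of the coefficients gives comparison of the values. -/
theorem val_le {p q : P3} (h : le p q = true) {x y φ : ℝ} (hx : 0 ≤ x) (hy : 0 ≤ y)
    (hφ : 0 ≤ φ) : p.val x y φ ≤ q.val x y φ := by
  have n0 : ∀ a : ℚ, decide (a ≤ 0) = true → (a : ℝ) ≤ 0 := fun a h => by
    exact_mod_cast of_decide_eq_true h
  have p0 : ∀ a : ℚ, decide (0 ≤ a) = true → (0 : ℝ) ≤ a := fun a h => by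
    exact_mod_cast of_decide_eq_true h
  have l0 : ∀ a b : ℚ, decide (a ≤ b) = true → (a : ℝ) ≤ b := fun a b h => by
    exact_mod_cast of_decide_eq_true h
  have n1 := fun a => evG_neg (e := fun q : ℚ => (q : ℝ)) n0 hx a
  have p1 := fun a => evG_pos (e := fun q : ℚ => (q : ℝ)) p0 hx a
  have l1 := fun a b => evG_le (e := fun q : ℚ => (q : ℝ)) n0 p0 l0 hx a b
  have n2 := fun a => evG_neg n1 hy a
  have p2 := fun a => evG_pos p1 hy a
  have l2 := fun a b => evG_le n1 p1 l1 hy a b
  exact evG_le n2 p2 l2 hφ p q h

end P3

end Vale.Agent.P224.R2.H533
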