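import Vale.Agent.P224.R2.H533.Small
import Vale.Agent.P224.R2.H533.Pol
import Mathlib.Data.List.GetD

/-!
The rows and the polynomial of the tail as polynomials in three variables, and the comparison with
the data of the check.
-/

namespace Vale.Agent.P224.R2.H533

open Vale.Agent.P224.R2.H582

namespace P3

/-- finite sum -/
def sumR (f : ℕ → P3) : ℕ → P3
  | 0 => []
  | n + 1 => add (sumR f n) (f n)

theorem val_nil (x y φ : ℝ) : P3.val [] x y φ = 0 := rfl

theorem val_sumR (f : ℕ → P3) (n : ℕ) (x y φ : ℝ) :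
    (sumR f n).val x y φ = ∑ i ∈ Finset.range n, (f i).val x y φ := by
  induction n with
  | zero => simp [sumR, val_nil]
  | succ n ih => rw [sumR, val_add, ih, Finset.sum_range_succ]

end P3

open P3

/-! ### the data of the check as polynomials -/

theorem evG_cast1 (r : List ℕ) (x : ℝ) :
    evG (fun q : ℚ => (q : ℝ)) x (r.map fun n : ℕ => (n : ℚ)) = ev r x := by
  induction r with
  | nil => rfl
  | cons a r ih =>
    simp only [List.map_cons, evG, ih, ev]
    push_cast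
    ring

theorem evG_cast0 (r : List ℕ) (x y : ℝ) :
    evG (evG (fun q : ℚ => (q : ℝ)) x) y (r.map fun n : ℕ => [(n : ℚ)]) = ev r y := by
  induction r with
  | nil => rfl
  | cons a r ih =>
    simp only [List.map_cons, evG, ih, ev]
    push_cast
    ring

/-- the negative part -/
def negP (H : HD) : P3 := H.N.map fun r => r.map fun l => l.map fun n : ℕ => (n : ℚ)

/-- the positive part -/
def posP (H : HD) : P3 :=
  add (add (H.PX.map fun r => [r.map fun n : ℕ => (n : ℚ)])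
    (H.PY.map fun r => r.map fun n : ℕ => [(n : ℚ)]))
    (smul H.e (mul (pow (vy 1) 2) (pow (add (cst H.s) (vx 1)) 2)))

theorem val_negP (H : HD) (x y φ : ℝ) : (negP H).val x y φ = H.neg x y φ := by
  unfold HD.neg negP P3.val
  induction H.N with
  | nil => rfl
  | cons r l ih =>
    simp only [List.map_cons, evG, ih, evR3]
    congr 1
    induction r with
    | nil => rfl
    | cons p r ih => simp only [List.map_cons, evG, ih, evR, evG_cast1]

theorem val_posP (H : HD) (x y φ : ℝ) : (posP H).val x y φ = H.pos x y φ := by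
  unfold HD.pos posP
  rw [val_add, val_add, val_smul, val_mul, val_pow, val_pow, val_add, val_cst, val_vy, val_vx]
  have h1 : P3.val (H.PX.map fun r => [r.map fun n : ℕ => (n : ℚ)]) x y φ = evR H.PX x φ := by
    unfold P3.val
    induction H.PX with
    | nil => rfl
    | cons r l ih =>
      simp only [List.map_cons, evG, ih, evR, evG_cast1]
      ring
  have h2 : P3.val (H.PY.map fun r => r.map fun n : ℕ => [(n : ℚ)]) x y φ = evR H.PY y φ := by
    unfold P3.val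
    induction H.PY with
    | nil => rfl
    | cons r l ih => simp only [List.map_cons, evG, ih, evR, evG_cast0]
  rw [h1, h2]
  push_cast
  ring

/-- the negative part for large values: the first variable is `r` -/
def negTP (H : HD) : P3 := H.NT.map fun r => [r.map fun n : ℕ => (n : ℚ)]

/-- the positive part for large values: the first variable is `r ^ 2 - s ^ 2`, the second `r` -/
def posTP (H : HD) : P3 :=
  H.PT.foldr (fun t p => add (smul t.1 (mul (pow (vf 1) t.2.1)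
    (mul (pow (vx 1) t.2.2.1) (pow (vy 1) (2 * t.2.2.2))))) p) []

theorem val_negTP (H : HD) (x y φ : ℝ) : (negTP H).val x y φ = H.negT x φ := by
  unfold HD.negT negTP P3.val
  induction H.NT with
  | nil => rfl
  | cons r l ih =>
    simp only [List.map_cons, evG, ih, evR, evG_cast1]
    ring

theorem val_posTP (H : HD) (r φ : ℝ) :
    (posTP H).val (r ^ 2 - (H.s : ℝ) ^ 2) r φ = H.posT r φ := by
  unfold HD.posT posTP
  induction H.PT with
  | nil => rfl
  | cons t l ih =>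
    rw [List.foldr_cons, List.map_cons, List.sum_cons, val_add, ih, val_smul, val_mul, val_mul,
      val_pow, val_pow, val_pow, val_vf, val_vx, val_vy]
    push_cast
    ring

/-! ### the rows -/

/-- the multipliers of the rows on the half line `x ≥ 0` -/
structure RowD where
  lam : ℚ
  K : ℚ
  th : ℚ
  c1 : ℚ
  wP : ℚ
  wX : ℚ
  wF : List ℚ
  wR : List ℚ

/-- the polynomial of the tail: `2 + j` rows -/
structure TabD where
  j : ℕ
  al : List (List ℚ)
  be : List (List ℚ)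
  ra : ℚ
  rb : ℚ

section real

variable (M : RowD) (B : TabD) (x y φ : ℝ)

/-- combination with a list of coefficients -/
noncomputable def cmbR (l : List ℚ) (f : ℕ → ℝ) : ℝ :=
  ∑ i ∈ Finset.range l.length, ((l.getD i 0 : ℚ) : ℝ) * f i

/-- the combination of the rows at `ρ = 1 + x`, `a = y + x ^ 2` -/
noncomputable def rowV : ℝ :=
  M.wP * (φ ^ 2 - M.c1 * (y + x ^ 2))
    + M.wX * ((1 - M.th) * (φ ^ 2 * (x * (2 + x)) ^ 2) - 3 * M.lam ^ 2 * (φ ^ 2 * (x * (2 + x)))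
      - M.K * φ ^ 2 - 4 * M.lam ^ 2 / M.th * ((y * (1 + x) - y ^ 2 / 4) * (1 + x) ^ 2))
    + cmbR M.wF (fun i => φ ^ (2 * i + 2) - (4 * i + 2) * φ ^ (2 * i) * (y * (1 + x) - y ^ 2 / 4)
      - 2 * M.lam * φ ^ (2 * i + 1))
    + cmbR M.wR (fun l => (x * (2 + x)) ^ 4 * (1 + x) ^ (2 * l)
      - M.lam ^ 2 * ((x * (2 + x)) ^ 3 * (1 + x) ^ (2 * l))
      - 2 * M.lam ^ 2 * (3 * (x * (2 + x)) ^ 2 * (1 + x) ^ (2 * (l + 1))
        + l * (x * (2 + x)) ^ 3 * (1 + x) ^ (2 * l)))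

/-- the polynomial of the tail at `a = y + x ^ 2`, `b = y` -/
noncomputable def tabV : ℝ :=
  (∑ i ∈ Finset.range (B.j + 2), ∑ k ∈ Finset.range (i + 1),
    ((((B.al.getD i []).getD k 0 : ℚ) : ℝ) * (y + x ^ 2)
      + (((B.be.getD i []).getD k 0 : ℚ) : ℝ) * φ ^ 2) *
        (y ^ k * φ ^ (B.j + 1 - i + 2 * (i - k))))
    + ((B.ra : ℝ) * (y + x ^ 2) + (B.rb : ℝ) * φ ^ 2)

end real

section poly

variable (M : RowD) (B : TabD) (s : ℚ)

/-- the polynomial of the rows; the variables are divided by `s` -/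
def rowPo : P3 :=
  let X := vx (1 / s)
  let Y := vy (1 / s)
  let F := vf (1 / s)
  let r := add (cst 1) X
  let r2 := pow r 2
  let q := mul X (add (cst 2) X)
  let q2 := pow q 2
  let q3 := pow q 3
  let q4 := pow q 4
  let f2 := pow F 2
  let a := add Y (pow X 2)
  let t := add (mul Y r) (smul (-1 / 4) (pow Y 2))
  add (add (add
    (smul M.wP (add f2 (smul (-M.c1) a)))
    (smul M.wX (add (add (add (smul (1 - M.th) (mul f2 q2)) (smul (-3 * M.lam ^ 2) (mul f2 q)))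
      (smul (-M.K) f2)) (smul (-(4 * M.lam ^ 2 / M.th)) (mul t r2)))))
    (sumR (fun i => smul (M.wF.getD i 0) (add (add (pow F (2 * i + 2))
      (smul (-(4 * i + 2)) (mul (pow F (2 * i)) t))) (smul (-2 * M.lam) (pow F (2 * i + 1)))))
      M.wF.length))
    (sumR (fun l => smul (M.wR.getD l 0) (add (add (mul q4 (pow r (2 * l)))
      (smul (-M.lam ^ 2) (mul q3 (pow r (2 * l))))) (smul (-2 * M.lam ^ 2)
        (add (smul 3 (mul q2 (pow r (2 * (l + 1))))) (smul l (mul q3 (pow r (2 * l)))))))) M.wR.length)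

/-- the polynomial of the tail; the variables are divided by `s` -/
def tabPo : P3 :=
  let X := vx (1 / s)
  let Y := vy (1 / s)
  let F := vf (1 / s)
  let f2 := pow F 2
  let a := add Y (pow X 2)
  add (sumR (fun i => sumR (fun k =>
    mul (mul (add (smul ((B.al.getD i []).getD k 0) a) (smul ((B.be.getD i []).getD k 0) f2))
      (pow Y k)) (pow F (B.j + 1 - i + 2 * (i - k)))) (i + 1)) (B.j + 2))
    (add (smul B.ra a) (smul B.rb f2))

theorem val_rowPo (x y φ : ℝ) :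
    (rowPo M s).val x y φ = rowV M (x / s) (y / s) (φ / s) := by
  unfold rowPo rowV cmbR
  simp only [val_add, val_smul, val_mul, val_pow, val_cst, val_vx, val_vy, val_vf, val_sumR]
  congr 1
  · congr 1
    · push_cast
      ring
    · refine Finset.sum_congr rfl fun i _ => ?_
      push_cast
      ring
  · refine Finset.sum_congr rfl fun i _ => ?_
    push_cast
    ring

theorem val_tabPo (x y φ : ℝ) :
    (tabPo B s).val x y φ = tabV B (x / s) (y / s) (φ / s) := by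
  unfold tabPo tabV
  simp only [val_add, val_smul, val_mul, val_pow, val_vx, val_vy, val_vf, val_sumR]
  congr 1
  · refine Finset.sum_congr rfl fun i _ => Finset.sum_congr rfl fun k _ => ?_
    push_cast
    ring
  · push_cast
    ring

/-- the polynomial `c a + rows - tail`; the variables are divided by `s` -/
def totPo (c : ℚ) : P3 :=
  add (add (smul c (add (vy (1 / s)) (pow (vx (1 / s)) 2))) (rowPo M s)) (smul (-1) (tabPo B s))

theorem val_totPo (c : ℚ) (x y φ : ℝ) : (totPo M B s c).val x y φ =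
    c * (y / s + (x / s) ^ 2) + rowV M (x / s) (y / s) (φ / s) - tabV B (x / s) (y / s) (φ / s) := by
  unfold totPo
  rw [val_add, val_add, val_smul, val_smul, val_rowPo, val_tabPo, val_add, val_pow, val_vx, val_vy]
  push_cast
  ring

end poly

/-! ### the large values -/

section large

variable (M : RowD) (B : TabD) (s : ℚ)

/-- the positive part for large values -/
noncomputable def posV (q r φ : ℝ) : ℝ :=
  (M.wP - B.rb) * φ ^ 2 + M.wX * (1 - M.th) * (φ ^ 2 * q ^ 2)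
    + cmbR M.wF (fun i => φ ^ (2 * i + 2)) + cmbR M.wR (fun l => q ^ 4 * r ^ (2 * l))

/-- the negative part for large values -/
noncomputable def negV (r φ : ℝ) : ℝ :=
  M.wX * ((M.K + M.lam ^ 2) * (r ^ 2 * φ ^ 2) + 4 * M.lam ^ 2 / M.th * r ^ 4)
    + cmbR M.wF (fun i => (4 * i + 2) * φ ^ (2 * i) * r ^ 2 + 2 * M.lam * φ ^ (2 * i + 1))
    + cmbR M.wR (fun l => M.lam ^ 2 * r ^ (6 + 2 * l)
      + 2 * M.lam ^ 2 * (3 * r ^ (4 + 2 * (l + 1)) + l * r ^ (6 + 2 * l)))
    + ∑ i ∈ Finset.range (B.j + 2), ∑ k ∈ Finset.range (i + 1),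
      ((((B.al.getD i []).getD k 0 : ℚ) : ℝ) * (r + 1) ^ 2
        + (((B.be.getD i []).getD k 0 : ℚ) : ℝ) * φ ^ 2) *
          ((4 * r) ^ k * φ ^ (B.j + 1 - i + 2 * (i - k)))

/-- the signs of the data -/
def sgnOK (c : ℚ) : Bool :=
  decide (0 ≤ M.lam) && decide (0 < M.th) && decide (0 ≤ M.wX) && decide (2 * M.lam ^ 2 ≤ M.K) &&
    decide (0 ≤ c - M.wP * M.c1 - B.ra) && M.wF.all (fun w => decide (0 ≤ w)) &&
    M.wR.all (fun w => decide (0 ≤ w)) && B.al.all (fun l => l.all fun w => decide (0 ≤ w)) &&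
    B.be.all (fun l => l.all fun w => decide (0 ≤ w))

theorem getD_nn {l : List ℚ} (h : l.all (fun w => decide (0 ≤ w)) = true) (i : ℕ) :
    (0 : ℝ) ≤ ((l.getD i 0 : ℚ) : ℝ) := by
  rw [List.all_eq_true] at h
  have h1 : 0 ≤ l.getD i 0 := by
    rcases lt_or_ge i l.length with hi | hi
    · rw [List.getD_eq_getElem _ _ hi]
      exact of_decide_eq_true (h _ (List.getElem_mem hi))
    · rw [List.getD_eq_default _ _ hi]
  exact_mod_cast h1

theorem getD_nn2 {l : List (List ℚ)} (h : l.all (fun l => l.all fun w => decide (0 ≤ w)) = true)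
    (i k : ℕ) : (0 : ℝ) ≤ (((l.getD i []).getD k 0 : ℚ) : ℝ) := by
  rw [List.all_eq_true] at h
  refine getD_nn ?_ k
  rcases lt_or_ge i l.length with hi | hi
  · rw [List.getD_eq_getElem _ _ hi]
    exact h _ (List.getElem_mem hi)
  · rw [List.getD_eq_default _ _ hi]
    rfl

theorem cmbR_le {l : List ℚ} (h : l.all (fun w => decide (0 ≤ w)) = true) {f g : ℕ → ℝ}
    (hfg : ∀ i, f i ≤ g i) : cmbR l f ≤ cmbR l g :=
  Finset.sum_le_sum fun i _ => mul_le_mul_of_nonneg_left (hfg i) (getD_nn h i)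

theorem cmbR_sub (l : List ℚ) (f g : ℕ → ℝ) :
    cmbR l (fun i => f i - g i) = cmbR l f - cmbR l g := by
  unfold cmbR
  rw [← Finset.sum_sub_distrib]
  exact Finset.sum_congr rfl fun i _ => mul_sub _ _ _

/-- The inequality for large values. -/
theorem large_le {M : RowD} {B : TabD} {c : ℚ} (h : sgnOK M B c = true) {x y φ : ℝ} (hx : 0 ≤ x)
    (hy : 0 ≤ y) (hyx : y ≤ 4 * (1 + x)) (hφ : 0 ≤ φ) :
    posV M B ((1 + x) ^ 2 - 1) (1 + x) φ - negV M B (1 + x) φ ≤
      c * (y + x ^ 2) + rowV M x y φ - tabV B x y φ := by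
  unfold sgnOK at h
  simp only [Bool.and_eq_true, decide_eq_true_eq] at h
  obtain ⟨⟨⟨⟨⟨⟨⟨⟨h1, h2⟩, h3⟩, h4⟩, h5⟩, h6⟩, h7⟩, h8⟩, h9⟩ := h
  have g1 : (0 : ℝ) ≤ M.lam := by exact_mod_cast h1
  have g2 : (0 : ℝ) < M.th := by exact_mod_cast h2
  have g3 : (0 : ℝ) ≤ M.wX := by exact_mod_cast h3
  have g4 : 2 * (M.lam : ℝ) ^ 2 ≤ M.K := by exact_mod_cast h4
  have g5 : (0 : ℝ) ≤ c - M.wP * M.c1 - B.ra := by exact_mod_cast h5
  obtain ⟨r, hr⟩ : ∃ r, r = 1 + x := ⟨_, rfl⟩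
  have hr1 : 1 ≤ r := by linarith
  have hr0 : 0 ≤ r := by linarith
  have hxr : x = r - 1 := by linarith
  have hq0 : 0 ≤ r ^ 2 - 1 := by nlinarith
  have eq : x * (2 + x) = r ^ 2 - 1 := by
    rw [hxr]
    ring
  have ht : y * r - y ^ 2 / 4 ≤ r ^ 2 := by nlinarith [sq_nonneg (r - y / 2)]
  have hy4 : y ≤ 4 * r := by rw [hr]; exact hyx
  have ha : y + x ^ 2 ≤ (r + 1) ^ 2 := by
    rw [hxr]
    nlinarith
  have ha0 : 0 ≤ y + x ^ 2 := by positivity
  -- the rows of `φ`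
  have k1 : cmbR M.wF (fun i => φ ^ (2 * i + 2)) -
      cmbR M.wF (fun i => (4 * i + 2) * φ ^ (2 * i) * r ^ 2 + 2 * M.lam * φ ^ (2 * i + 1)) ≤
      cmbR M.wF (fun i => φ ^ (2 * i + 2) - (4 * i + 2) * φ ^ (2 * i) * (y * (1 + x) - y ^ 2 / 4)
        - 2 * M.lam * φ ^ (2 * i + 1)) := by
    rw [← cmbR_sub]
    refine cmbR_le h6 fun i => ?_
    rw [← hr]
    have := mul_le_mul_of_nonneg_left ht (by positivity : (0 : ℝ) ≤ (4 * i + 2) * φ ^ (2 * i))
    linarith
  have k2 : cmbR M.wR (fun l => (r ^ 2 - 1) ^ 4 * r ^ (2 * l)) -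
      cmbR M.wR (fun l => M.lam ^ 2 * r ^ (6 + 2 * l)
        + 2 * M.lam ^ 2 * (3 * r ^ (4 + 2 * (l + 1)) + l * r ^ (6 + 2 * l))) ≤
      cmbR M.wR (fun l => (x * (2 + x)) ^ 4 * (1 + x) ^ (2 * l)
        - M.lam ^ 2 * ((x * (2 + x)) ^ 3 * (1 + x) ^ (2 * l))
        - 2 * M.lam ^ 2 * (3 * (x * (2 + x)) ^ 2 * (1 + x) ^ (2 * (l + 1))
          + l * (x * (2 + x)) ^ 3 * (1 + x) ^ (2 * l))) := by
    rw [← cmbR_sub]
    refine cmbR_le h7 fun l => ?_
    rw [eq, ← hr]
    have e3 : (r ^ 2 - 1) ^ 3 ≤ r ^ 6 := by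
      calc (r ^ 2 - 1) ^ 3 ≤ (r ^ 2) ^ 3 := pow_le_pow_left₀ hq0 (by linarith) 3
        _ = r ^ 6 := by ring
    have e2 : (r ^ 2 - 1) ^ 2 ≤ r ^ 4 := by
      calc (r ^ 2 - 1) ^ 2 ≤ (r ^ 2) ^ 2 := pow_le_pow_left₀ hq0 (by linarith) 2
        _ = r ^ 4 := by ring
    have m3 : (r ^ 2 - 1) ^ 3 * r ^ (2 * l) ≤ r ^ (6 + 2 * l) := by
      rw [pow_add]
      exact mul_le_mul_of_nonneg_right e3 (by positivity)
    have m2 : (r ^ 2 - 1) ^ 2 * r ^ (2 * (l + 1)) ≤ r ^ (4 + 2 * (l + 1)) := by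
      rw [pow_add]
      exact mul_le_mul_of_nonneg_right e2 (by positivity)
    have n3 := mul_le_mul_of_nonneg_left m3 (by positivity : (0 : ℝ) ≤ (M.lam : ℝ) ^ 2)
    have n3' := mul_le_mul_of_nonneg_left m3 (by positivity : (0 : ℝ) ≤ 2 * (M.lam : ℝ) ^ 2 * l)
    have n2 := mul_le_mul_of_nonneg_left m2 (by positivity : (0 : ℝ) ≤ 2 * (M.lam : ℝ) ^ 2 * 3)
    linarith
  have k3 : tabV B x y φ ≤ (∑ i ∈ Finset.range (B.j + 2), ∑ k ∈ Finset.range (i + 1),
      ((((B.al.getD i []).getD k 0 : ℚ) : ℝ) * (r + 1) ^ 2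
        + (((B.be.getD i []).getD k 0 : ℚ) : ℝ) * φ ^ 2) *
          ((4 * r) ^ k * φ ^ (B.j + 1 - i + 2 * (i - k))))
      + ((B.ra : ℝ) * (y + x ^ 2) + (B.rb : ℝ) * φ ^ 2) := by
    unfold tabV
    refine add_le_add (Finset.sum_le_sum fun i _ => Finset.sum_le_sum fun k _ => ?_) le_rfl
    have b1 := getD_nn2 h8 i k
    have b2 := getD_nn2 h9 i k
    refine mul_le_mul (add_le_add (mul_le_mul_of_nonneg_left ha b1) le_rfl)
      (mul_le_mul_of_nonneg_right (pow_le_pow_left₀ hy hy4 k) (by positivity)) (by positivity)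
      (by positivity)
  have k4 : (M.wX : ℝ) * (1 - M.th) * (φ ^ 2 * (r ^ 2 - 1) ^ 2) -
      M.wX * ((M.K + M.lam ^ 2) * (r ^ 2 * φ ^ 2) + 4 * M.lam ^ 2 / M.th * r ^ 4) ≤
      M.wX * ((1 - M.th) * (φ ^ 2 * (x * (2 + x)) ^ 2) - 3 * M.lam ^ 2 * (φ ^ 2 * (x * (2 + x)))
      - M.K * φ ^ 2 - 4 * M.lam ^ 2 / M.th * ((y * (1 + x) - y ^ 2 / 4) * (1 + x) ^ 2)) := by
    rw [eq, ← hr, mul_assoc, ← mul_sub]
    refine mul_le_mul_of_nonneg_left ?_ g3
    have e1 : 4 * (M.lam : ℝ) ^ 2 / M.th * ((y * r - y ^ 2 / 4) * r ^ 2) ≤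
        4 * M.lam ^ 2 / M.th * r ^ 4 := by
      refine mul_le_mul_of_nonneg_left ?_ (by positivity)
      calc (y * r - y ^ 2 / 4) * r ^ 2 ≤ r ^ 2 * r ^ 2 :=
            mul_le_mul_of_nonneg_right ht (by positivity)
        _ = r ^ 4 := by ring
    have e2 : 3 * (M.lam : ℝ) ^ 2 * (φ ^ 2 * (r ^ 2 - 1)) + M.K * φ ^ 2 ≤
        (M.K + M.lam ^ 2) * (r ^ 2 * φ ^ 2) := by
      have e3 : 0 ≤ ((M.K : ℝ) - 2 * M.lam ^ 2) * (r ^ 2 - 1) + M.lam ^ 2 := by
        have := mul_nonneg (sub_nonneg.2 g4) hq0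
        positivity
      have e4 := mul_nonneg e3 (sq_nonneg φ)
      nlinarith [e4]
    linarith
  have k5 := mul_nonneg g5 ha0
  have k6 : posV M B (r ^ 2 - 1) r φ - negV M B r φ ≤
      c * (y + x ^ 2) + rowV M x y φ - tabV B x y φ := by
    unfold posV negV rowV
    linarith
  rw [hr] at k6
  exact k6

/-- the positive part for large values as a polynomial in `q s ^ 2`, `r s`, `φ s` -/
def posVo : P3 :=
  let Q := vx (1 / s ^ 2)
  let R := vy (1 / s)
  let F := vf (1 / s)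
  add (add (add (smul (M.wP - B.rb) (pow F 2)) (smul (M.wX * (1 - M.th)) (mul (pow F 2) (pow Q 2))))
    (sumR (fun i => smul (M.wF.getD i 0) (pow F (2 * i + 2))) M.wF.length))
    (sumR (fun l => smul (M.wR.getD l 0) (mul (pow Q 4) (pow R (2 * l)))) M.wR.length)

/-- the negative part for large values as a polynomial in `r s`, `φ s` -/
def negVo : P3 :=
  let R := vx (1 / s)
  let F := vf (1 / s)
  add (add (add (smul M.wX (add (smul (M.K + M.lam ^ 2) (mul (pow R 2) (pow F 2)))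
      (smul (4 * M.lam ^ 2 / M.th) (pow R 4))))
    (sumR (fun i => smul (M.wF.getD i 0) (add (smul (4 * i + 2) (mul (pow F (2 * i)) (pow R 2)))
      (smul (2 * M.lam) (pow F (2 * i + 1))))) M.wF.length))
    (sumR (fun l => smul (M.wR.getD l 0) (add (smul (M.lam ^ 2) (pow R (6 + 2 * l)))
      (smul (2 * M.lam ^ 2) (add (smul 3 (pow R (4 + 2 * (l + 1)))) (smul l (pow R (6 + 2 * l)))))))
      M.wR.length))
    (sumR (fun i => sumR (fun k => mul (add (smul ((B.al.getD i []).getD k 0)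
      (pow (add R (cst 1)) 2)) (smul ((B.be.getD i []).getD k 0) (pow F 2)))
      (mul (pow (smul 4 R) k) (pow F (B.j + 1 - i + 2 * (i - k))))) (i + 1)) (B.j + 2))

theorem val_posVo (x y φ : ℝ) :
    (posVo M B s).val x y φ = posV M B (x / s ^ 2) (y / s) (φ / s) := by
  unfold posVo posV cmbR
  simp only [val_add, val_smul, val_mul, val_pow, val_vx, val_vy, val_vf, val_sumR]
  congr 1
  · congr 1
    · push_cast
      ring
    · refine Finset.sum_congr rfl fun i _ => ?_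
      push_cast
      ring
  · refine Finset.sum_congr rfl fun i _ => ?_
    push_cast
    ring

theorem val_negVo (x y φ : ℝ) :
    (negVo M B s).val x y φ = negV M B (x / s) (φ / s) := by
  unfold negVo negV cmbR
  simp only [val_add, val_smul, val_mul, val_pow, val_cst, val_vx, val_vf, val_sumR]
  congr 1
  · congr 1
    · congr 1
      · push_cast
        ring
      · refine Finset.sum_congr rfl fun i _ => ?_
        push_cast
        ring
    · refine Finset.sum_congr rfl fun i _ => ?_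
      push_cast
      ring
  · refine Finset.sum_congr rfl fun i _ => Finset.sum_congr rfl fun k _ => ?_
    push_cast
    ring

end large

/-- the comparison of the data of the check with the polynomials -/
def cmpOK (H : HD) (M : RowD) (B : TabD) (c C : ℚ) : Bool :=
  decide (0 < C) && Nat.ble 1 H.s && sgnOK M B c &&
    P3.le (posP H) (add (negP H) (smul C (totPo M B H.s c))) &&
    P3.le (smul C (negVo M B H.s)) (negTP H) &&
    P3.le (posTP H) (smul C (posVo M B H.s))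

theorem scale_div {n : ℕ} (hn : (0 : ℝ) < n) (z : ℝ) : (n : ℝ) * z / ((n : ℚ) : ℝ) = z := by
  rw [Rat.cast_natCast]
  exact mul_div_cancel_left₀ z hn.ne'

theorem scale_q {n : ℕ} (hn : (0 : ℝ) < n) (z : ℝ) :
    (((n : ℝ) * z) ^ 2 - (n : ℝ) ^ 2) / ((n : ℚ) : ℝ) ^ 2 = z ^ 2 - 1 := by
  rw [Rat.cast_natCast]
  have h : (n : ℝ) ^ 2 ≠ 0 := pow_ne_zero 2 hn.ne'
  rw [div_eq_iff h]
  ring

theorem row_small {H : HD} {M : RowD} {B : TabD} {c C : ℚ} (hs0 : (0 : ℝ) < H.s)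
    (hle : P3.le (posP H) (add (negP H) (smul C (totPo M B H.s c))) = true) {x y φ : ℝ}
    (hx : 0 ≤ x) (hy : 0 ≤ y) (hφ : 0 ≤ φ)
    (h2 : H.neg (H.s * x) (H.s * y) (H.s * φ) ≤ H.pos (H.s * x) (H.s * y) (H.s * φ)) :
    0 ≤ (C : ℝ) * (c * (y + x ^ 2) + rowV M x y φ - tabV B x y φ) := by
  have h1 := P3.val_le hle (mul_nonneg hs0.le hx) (mul_nonneg hs0.le hy) (mul_nonneg hs0.le hφ)
  rw [val_add, val_posP, val_negP, val_smul, val_totPo, scale_div hs0, scale_div hs0,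
    scale_div hs0] at h1
  exact (le_add_iff_nonneg_right _).1 (h2.trans h1)

theorem row_large {H : HD} {M : RowD} {B : TabD} {c C : ℚ} (hC : (0 : ℝ) ≤ C)
    (hs0 : (0 : ℝ) < H.s) (hsg : sgnOK M B c = true)
    (hln : P3.le (smul C (negVo M B H.s)) (negTP H) = true)
    (hlp : P3.le (posTP H) (smul C (posVo M B H.s)) = true) {x y φ : ℝ}
    (hx : 0 ≤ x) (hy : 0 ≤ y) (hyx : y ≤ 4 * (1 + x)) (hφ : 0 ≤ φ)
    (h2 : H.negT (H.s * (1 + x)) (H.s * φ) ≤ H.posT (H.s * (1 + x)) (H.s * φ)) :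
    0 ≤ (C : ℝ) * (c * (y + x ^ 2) + rowV M x y φ - tabV B x y φ) := by
  have hx1 : (1 : ℝ) ≤ 1 + x := le_add_of_nonneg_right hx
  have hr : 0 ≤ (H.s : ℝ) * (1 + x) := mul_nonneg hs0.le (zero_le_one.trans hx1)
  have hq : 0 ≤ ((H.s : ℝ) * (1 + x)) ^ 2 - (H.s : ℝ) ^ 2 :=
    sub_nonneg.2 (pow_le_pow_left₀ hs0.le (le_mul_of_one_le_right hs0.le hx1) 2)
  have h3 := P3.val_le hln (y := 0) hr le_rfl (mul_nonneg hs0.le hφ)
  have h4 := P3.val_le hlp hq hr (mul_nonneg hs0.le hφ)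
  rw [val_smul, val_negVo, val_negTP, scale_div hs0, scale_div hs0] at h3
  rw [val_posTP, val_smul, val_posVo, scale_div hs0, scale_div hs0, scale_q hs0] at h4
  have h5 := mul_le_mul_of_nonneg_left (large_le hsg hx hy hyx hφ) hC
  rw [mul_sub] at h5
  refine le_trans ?_ h5
  exact sub_nonneg.2 ((h3.trans h2).trans h4)

/-- **The pointwise inequality** on the half line `x ≥ 0`. -/
theorem row_of_check {H : HD} {M : RowD} {B : TabD} {c C : ℚ} (h : cmpOK H M B c C = true)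
    {xt : ℕ} (hH : ∀ x y φ : ℝ, 0 ≤ x → x < xt → 0 ≤ y → y ≤ 4 * (H.s + x) → 0 ≤ φ →
      H.neg x y φ ≤ H.pos x y φ)
    (hT : ∀ r φ : ℝ, ((H.s + xt : ℕ) : ℝ) ≤ r → 0 ≤ φ → H.negT r φ ≤ H.posT r φ)
    {x y φ : ℝ} (hx : 0 ≤ x) (hy : 0 ≤ y) (hyx : y ≤ 4 * (1 + x)) (hφ : 0 ≤ φ) :
    tabV B x y φ ≤ c * (y + x ^ 2) + rowV M x y φ := by
  unfold cmpOK at h
  rw [Bool.and_eq_true, Bool.and_eq_true, Bool.and_eq_true, Bool.and_eq_true, Bool.and_eq_true,
    decide_eq_true_eq] at h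
  obtain ⟨⟨⟨⟨⟨hC, hs⟩, hsg⟩, hle⟩, hln⟩, hlp⟩ := h
  have hs1 : 1 ≤ H.s := Nat.le_of_ble_eq_true hs
  have hs0 : (0 : ℝ) < H.s := Nat.cast_pos.2 hs1
  have hC' : (0 : ℝ) < C := Rat.cast_pos.2 hC
  have key : 0 ≤ (C : ℝ) * (c * (y + x ^ 2) + rowV M x y φ - tabV B x y φ) := by
    rcases lt_or_ge ((H.s : ℝ) * x) xt with hxt | hxt
    · refine row_small hs0 hle hx hy hφ (hH _ _ _ (mul_nonneg hs0.le hx) hxt
        (mul_nonneg hs0.le hy) ?_ (mul_nonneg hs0.le hφ))
      have h5 := mul_le_mul_of_nonneg_left hyx hs0.le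
      have h6 : (H.s : ℝ) * (4 * (1 + x)) = 4 * (H.s + H.s * x) := by ring
      rwa [h6] at h5
    · refine row_large hC'.le hs0 hsg hln hlp hx hy hyx hφ (hT _ _ ?_ (mul_nonneg hs0.le hφ))
      rw [Nat.cast_add, mul_add, mul_one]
      exact add_le_add le_rfl hxt
  exact sub_nonneg.1 (nonneg_of_mul_nonneg_right key hC')

end Vale.Agent.P224.R2.H533
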